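import Vale.Agent.Lib.P157.Dense

open MeasureTheory ProbabilityTheory
open Vale.Agent.Lib.P157

namespace Vale.Agent.Results.P157.A_denseSpinGlass

/-- Comparison of the Gaussian perceptron on the cube with the Gaussian Hamiltonian whose covariance
is `M` times the covariance function of `f` at the overlap, at free-energy and at ground-state
level. -/
theorem result (N M : ℕ) (hN : 1 ≤ N) (hM : 1 ≤ M) (f : ℝ → ℝ) (hf : Measurable f)
    (L : ℝ) (hL : 0 < L) (hfL : ∀ u, |f u| ≤ L) :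
    (∃ (n : ℕ) (A : (Fin N → Bool) → Fin n → ℝ),
      ∀ x y, ∑ j, A x j * A y j = M * overlapCov f (overlap x y)) ∧
    ∀ (n : ℕ) (A : (Fin N → Bool) → Fin n → ℝ),
      (∀ x y, ∑ j, A x j * A y j = M * overlapCov f (overlap x y)) →
      |expectedPressure N M f - (M / N : ℝ) * (∫ u, f u ∂(gaussianReal 0 1)) -
        (1 / N : ℝ) * ∫ z, Real.log ((∑ x, Real.exp (∑ j, A x j * z j)) / 2 ^ N)
          ∂(patternLaw n)| ≤ 32 * (M / N : ℝ) * L ^ 3 ∧
      |expectedPressure N M f - (M / N : ℝ) * (∫ u, f u ∂(gaussianReal 0 1)) -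
        (1 / N : ℝ) * ∫ z, (⨆ x, ∑ j, A x j * z j) ∂(patternLaw n)| ≤
          Real.log 2 + 33 * ((M / N : ℝ) ^ (1 / 3 : ℝ)) * L :=
  dense_main hN hM hf hL hfL

end Vale.Agent.Results.P157.A_denseSpinGlass
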