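import Vale.Agent.Lib.P157.RSFinal
import Vale.Agent.Lib.P157.Freezing

open MeasureTheory ProbabilityTheory Filter Topology
open Vale.Agent.Lib.P157

namespace Vale.Agent.Results.P157.A_plantedRSFormula

/-- The replica symmetric formula for the relative entropy density of the planted law on the cube,
for every bounded Borel potential and every density, and the exact boundary of the annealed
phase, together with the frozen pressure and ground state energy beyond a critical inverse
temperature at which the sharp criterion holds. -/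
theorem result (f : ℝ → ℝ) (hf : Measurable f) (L : ℝ) (hL : 0 < L) (hfL : ∀ u, |f u| ≤ L)
    (α : ℝ) (hα : 0 < α) :
    (∀ q ∈ Set.Icc (0 : ℝ) 1,
      BddAbove (Set.range fun r : Set.Ici (0 : ℝ) => (r : ℝ) * q / 2 - e0RS r)) ∧
    BddAbove (Set.range fun q : Set.Icc (0 : ℝ) 1 => α * psiRS f q - jRS q) ∧
    0 ≤ rsValue α f ∧
    Tendsto (fun N : ℕ => partitionEntropy N ⌊α * N⌋₊ f / N) atTop (𝓝 (rsValue α f)) ∧
    (Tendsto (fun N : ℕ => expectedPressure N ⌊α * N⌋₊ f) atTop
        (𝓝 (α * Real.log (annealedConstant f))) ↔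
      ∀ q ∈ Set.Icc (0 : ℝ) 1, α * psiRS f q ≤ jRS q) ∧
    (∀ sc : ℝ, 0 < sc →
      α * (sc * tiltedMean f sc - Real.log (annealedConstant (fun u => sc * f u))) = Real.log 2 →
      (∀ q ∈ Set.Icc (0 : ℝ) 1, α * psiRS (fun u => sc * f u) q ≤ jRS q) →
      (∀ s : ℝ, sc ≤ s →
        Tendsto (fun N : ℕ => expectedPressure N ⌊α * N⌋₊ (fun u => s * f u)) atTop
          (𝓝 (s * (α * tiltedMean f sc) - Real.log 2))) ∧
      Tendsto (fun N : ℕ => (1 / N : ℝ) *
          ∫ G, ⨆ x, ∑ a : Fin ⌊α * N⌋₊, f (patternField x (G a)) ∂(patternsLaw N ⌊α * N⌋₊)) atTop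
        (𝓝 (α * tiltedMean f sc))) := by
  refine ⟨fun q hq => jRS_bdd hq.2, rsValue_bdd hα.le hf hfL, rsValue_nonneg hα.le hf hfL,
    tendsto_partitionEntropy hα hf hfL, annealed_iff_rs hα hf hL hfL, fun sc hsc hREM hC => ?_⟩
  have hs : ∀ u, |sc * f u| ≤ |sc| * L + 1 := fun u =>
    (abs_smul_pot_le hfL sc u).trans (by linarith)
  have hA := (annealed_iff_rs hα (hf.const_mul sc) (by positivity) hs).mpr hC
  exact ⟨fun s hs => freezing_limit hα hf hL hfL hsc hREM hA hs,
    ground_state_limit hα hf hL hfL hsc hREM hA⟩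

end Vale.Agent.Results.P157.A_plantedRSFormula
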