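import Vale.Agent.Lib.P157.Window5

open MeasureTheory ProbabilityTheory Filter Topology
open Vale.Agent.Lib.P157

namespace Vale.Agent.Results.P157.A_windowPhaseDiagram

/-- The complete phase diagram at positive inverse temperature of the error-counting potential with
a narrow symmetric window `[-κ, κ]`, at every density `α`: the annealed regime, the frozen regime,
and the limiting maximal number of satisfied constraints. -/
theorem result (κ : ℝ) (hκ : 0 < κ) (hκ1 : κ ≤ Real.exp (-100)) (α : ℝ) (hα : 0 < α) :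
    (∀ s : ℝ, 0 < s → α * bernKL (winTilt (winMass κ) s) (winMass κ) ≤ Real.log 2 →
      Tendsto (fun N : ℕ => expectedPressure N ⌊α * N⌋₊ (fun u => s * winPot κ u)) atTop
        (𝓝 (α * Real.log (winC (winMass κ) s)))) ∧
    (∀ s : ℝ, 0 < s → Real.log 2 < α * bernKL (winTilt (winMass κ) s) (winMass κ) →
      ∃ τc, winMass κ < τc ∧ τc < winTilt (winMass κ) s ∧
        α * bernKL τc (winMass κ) = Real.log 2 ∧
        Tendsto (fun N : ℕ => expectedPressure N ⌊α * N⌋₊ (fun u => s * winPot κ u)) atTop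
          (𝓝 (s * (α * τc) - Real.log 2))) ∧
    (α * Real.log (1 / winMass κ) ≤ Real.log 2 →
      Tendsto (fun N : ℕ => (1 / N : ℝ) *
        ∫ G, ⨆ x, ∑ a : Fin ⌊α * N⌋₊, winPot κ (patternField x (G a))
          ∂(patternsLaw N ⌊α * N⌋₊)) atTop (𝓝 α)) ∧
    (Real.log 2 < α * Real.log (1 / winMass κ) →
      ∃ τc, winMass κ < τc ∧ τc < 1 ∧ α * bernKL τc (winMass κ) = Real.log 2 ∧
        Tendsto (fun N : ℕ => (1 / N : ℝ) *
          ∫ G, ⨆ x, ∑ a : Fin ⌊α * N⌋₊, winPot κ (patternField x (G a))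
            ∂(patternsLaw N ⌊α * N⌋₊)) atTop (𝓝 (α * τc))) :=
  ⟨fun _ hs hK => win_annealed hκ hκ1 hα hs hK,
   fun _ hs hK => win_frozen hκ hκ1 hα hs hK,
   fun hK => win_ground_saturated hκ hκ1 hα hK,
   fun hK => win_ground_frozen hκ hκ1 hα hK⟩

end Vale.Agent.Results.P157.A_windowPhaseDiagram
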