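import Vale.Agent.Lib.P157.Freezing

open MeasureTheory ProbabilityTheory Filter Topology
open Vale.Agent.Lib.P157

namespace Vale.Agent.Results.P157.B_freezingCriterion

/-- The conditional first moment criterion for the annealed formula on the cube, and the exact
linear (frozen) pressure and ground state energy beyond a critical inverse temperature at which
the criterion holds. -/
theorem result (f : ℝ → ℝ) (hf : Measurable f) (L : ℝ) (hL : 0 < L) (hfL : ∀ u, |f u| ≤ L)
    (α : ℝ) (hα : 0 < α) :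
    (∀ s : ℝ, (∀ ρ : ℝ, -1 ≤ ρ → ρ ≤ 1 → α * crossEnt (fun u => s * f u) ρ ≤ shellRate ρ) →
      Tendsto (fun N : ℕ => expectedPressure N ⌊α * N⌋₊ (fun u => s * f u)) atTop
        (𝓝 (α * Real.log (annealedConstant (fun u => s * f u))))) ∧
    (∀ sc : ℝ, 0 < sc →
      α * (sc * tiltedMean f sc - Real.log (annealedConstant (fun u => sc * f u))) = Real.log 2 →
      (∀ ρ : ℝ, -1 ≤ ρ → ρ ≤ 1 → α * crossEnt (fun u => sc * f u) ρ ≤ shellRate ρ) →
      (∀ s : ℝ, sc ≤ s →
        Tendsto (fun N : ℕ => expectedPressure N ⌊α * N⌋₊ (fun u => s * f u)) atTop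
          (𝓝 (s * (α * tiltedMean f sc) - Real.log 2))) ∧
      Tendsto (fun N : ℕ => (1 / N : ℝ) *
          ∫ G, ⨆ x, ∑ a : Fin ⌊α * N⌋₊, f (patternField x (G a)) ∂(patternsLaw N ⌊α * N⌋₊)) atTop
        (𝓝 (α * tiltedMean f sc))) := by
  have hann : ∀ s : ℝ, (∀ ρ : ℝ, -1 ≤ ρ → ρ ≤ 1 → α * crossEnt (fun u => s * f u) ρ ≤ shellRate ρ) →
      Tendsto (fun N : ℕ => expectedPressure N ⌊α * N⌋₊ (fun u => s * f u)) atTop
        (𝓝 (α * Real.log (annealedConstant (fun u => s * f u)))) := fun s hC =>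
    annealed_of_crossEnt_le hα (hf.const_mul s) (L := |s| * L + 1) (by positivity)
      (fun u => (abs_smul_pot_le hfL s u).trans (by linarith)) hC
  refine ⟨hann, fun sc hsc hREM hC => ?_⟩
  have hA := hann sc hC
  exact ⟨fun s hs => freezing_limit hα hf hL hfL hsc hREM hA hs,
    ground_state_limit hα hf hL hfL hsc hREM hA⟩

end Vale.Agent.Results.P157.B_freezingCriterion
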